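import Mathlib.Analysis.Matrix.Order
import Mathlib.LinearAlgebra.Matrix.PosDef
import Mathlib.LinearAlgebra.Matrix.NonsingularInverse
import Mathlib.Data.Matrix.Block
import Mathlib.Data.Matrix.ColumnRowPartitioned
import Mathlib.Tactic.NoncommRing
import Mathlib.Tactic.Linarith
import Mathlib.Tactic.Positivity

open Matrix
open scoped ComplexOrder

namespace Vale.Agent.P372.Z

section basic

variable {I J : Type} [Fintype I] [Fintype J]

/-- The real part of the trace. -/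
noncomputable def rt (X : Matrix I I ℂ) : ℝ := X.trace.re

theorem rt_add (X Y : Matrix I I ℂ) : rt (X + Y) = rt X + rt Y := by
  simp [rt, trace_add]

theorem rt_sub (X Y : Matrix I I ℂ) : rt (X - Y) = rt X - rt Y := by
  simp [rt, trace_sub]

theorem rt_mul_comm (X : Matrix I J ℂ) (Y : Matrix J I ℂ) : rt (X * Y) = rt (Y * X) := by
  rw [rt, trace_mul_comm, rt]

theorem rt_smul (c : ℝ) (X : Matrix I I ℂ) : rt ((c : ℂ) • X) = c * rt X := by
  simp [rt, trace_smul]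

theorem rt_conj (X : Matrix I I ℂ) : rt Xᴴ = rt X := by
  rw [rt, trace_conjTranspose]
  simp [rt]

theorem rt_nonneg {X : Matrix I I ℂ} (h : X.PosSemidef) : 0 ≤ rt X := by
  have := h.trace_nonneg
  exact (Complex.le_def.mp this).1

end basic

variable {I J : Type} [Fintype I] [DecidableEq I] [Fintype J] [DecidableEq J]

/-- The parallel sum. -/
noncomputable def par (X Y : Matrix I I ℂ) : Matrix I I ℂ := X * (X + Y)⁻¹ * Y

/-- The expression of which the parallel sum is the minimum. -/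
def cs (X Y W : Matrix I I ℂ) : Matrix I I ℂ := Wᴴ * X * W + (1 - W)ᴴ * Y * (1 - W)

open scoped MatrixOrder in
theorem psd_fac {X : Matrix I I ℂ} (h : X.PosSemidef) : ∃ C : Matrix I I ℂ, X = Cᴴ * C := by
  obtain ⟨C, hC⟩ := CStarAlgebra.nonneg_iff_eq_star_mul_self.mp h.nonneg
  exact ⟨C, hC⟩

theorem rt_mul_nonneg {X Y : Matrix I I ℂ} (hX : X.PosSemidef) (hY : Y.PosSemidef) :
    0 ≤ rt (X * Y) := by
  obtain ⟨C, rfl⟩ := psd_fac hX
  rw [Matrix.mul_assoc, rt_mul_comm]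
  exact rt_nonneg (hY.mul_mul_conjTranspose_same C)

theorem cs_eq {X Y : Matrix I I ℂ} (hX : X.IsHermitian) (hY : Y.IsHermitian)
    (h : IsUnit (X + Y)) (W : Matrix I I ℂ) :
    cs X Y W = par X Y + (W - (X + Y)⁻¹ * Y)ᴴ * (X + Y) * (W - (X + Y)⁻¹ * Y) := by
  have hd : IsUnit (X + Y).det := (isUnit_iff_isUnit_det _).mp h
  have h1 : (X + Y)⁻¹ * (X + Y) = 1 := nonsing_inv_mul _ hd
  have h2 : (X + Y) * (X + Y)⁻¹ = 1 := mul_nonsing_inv _ hd
  have hM : (X + Y).IsHermitian := hX.add hY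
  have hN : ((X + Y)⁻¹)ᴴ = (X + Y)⁻¹ := by rw [conjTranspose_nonsing_inv, hM.eq]
  unfold cs par
  set N := (X + Y)⁻¹ with hNd
  have e1 : (W - N * Y)ᴴ = Wᴴ - Y * N := by
    rw [conjTranspose_sub, conjTranspose_mul, hN, hY.eq]
  have e2 : (1 - W)ᴴ = 1 - Wᴴ := by rw [conjTranspose_sub, conjTranspose_one]
  rw [e1, e2]
  have e3 : (Wᴴ - Y * N) * (X + Y) * (W - N * Y) =
      Wᴴ * (X + Y) * W - Wᴴ * ((X + Y) * N) * Y - Y * (N * (X + Y)) * W +
        Y * (N * (X + Y)) * N * Y := by noncomm_ring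
  have e4 : X * N * Y = ((X + Y) * N) * Y - Y * N * Y := by noncomm_ring
  rw [e3, e4, h1, h2]
  noncomm_ring

/-- Minimality: the parallel sum is at most `cs` for every `W`. -/
theorem par_le {X Y : Matrix I I ℂ} (hX : X.PosSemidef) (hY : Y.PosSemidef)
    (h : IsUnit (X + Y)) (W : Matrix I I ℂ) : (cs X Y W - par X Y).PosSemidef := by
  rw [cs_eq hX.1 hY.1 h W, add_sub_cancel_left]
  exact (hX.add hY).conjTranspose_mul_mul_same _

theorem cs_opt {X Y : Matrix I I ℂ} (hX : X.IsHermitian) (hY : Y.IsHermitian)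
    (h : IsUnit (X + Y)) : cs X Y ((X + Y)⁻¹ * Y) = par X Y := by
  rw [cs_eq hX hY h]
  simp

theorem par_psd {X Y : Matrix I I ℂ} (hX : X.PosSemidef) (hY : Y.PosSemidef)
    (h : IsUnit (X + Y)) : (par X Y).PosSemidef := by
  rw [← cs_opt hX.1 hY.1 h]
  exact (hX.conjTranspose_mul_mul_same _).add (hY.conjTranspose_mul_mul_same _)

/-- Quadratic form of a positive block matrix. -/
theorem block_test {X Y K : Matrix I I ℂ} (h : (fromBlocks X K Kᴴ Y).PosSemidef)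
    (a b : Matrix I J ℂ) :
    0 ≤ rt (aᴴ * X * a) + 2 * rt (aᴴ * K * b) + rt (bᴴ * Y * b) := by
  have h1 := h.conjTranspose_mul_mul_same (fromRows a b)
  have h2 := rt_nonneg h1
  have h3 : (fromRows a b)ᴴ * fromBlocks X K Kᴴ Y * fromRows a b =
      aᴴ * X * a + aᴴ * K * b + (bᴴ * Kᴴ * a + bᴴ * Y * b) := by
    rw [conjTranspose_fromRows_eq_fromCols_conjTranspose, fromCols_mul_fromBlocks,
      fromCols_mul_fromRows, Matrix.add_mul, Matrix.add_mul]
    abel
  rw [h3, rt_add, rt_add, rt_add] at h2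
  have h4 : rt (bᴴ * Kᴴ * a) = rt (aᴴ * K * b) := by
    rw [← rt_conj (aᴴ * K * b)]
    simp [conjTranspose_mul, Matrix.mul_assoc]
  rw [h4] at h2
  linarith

theorem block_scale {X Y K : Matrix I I ℂ} (h : (fromBlocks X K Kᴴ Y).PosSemidef)
    (a b : Matrix I J ℂ) {s : ℝ} (hs : 0 < s) :
    2 * rt (aᴴ * K * b) ≤ s * rt (aᴴ * X * a) + s⁻¹ * rt (bᴴ * Y * b) := by
  have hss : Real.sqrt s * Real.sqrt s = s := Real.mul_self_sqrt hs.le
  have hs0 : 0 < Real.sqrt s := Real.sqrt_pos.mpr hs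
  have hsi : (Real.sqrt s)⁻¹ * (Real.sqrt s)⁻¹ = s⁻¹ := by rw [← mul_inv, hss]
  have h1 := block_test h (((Real.sqrt s : ℝ) : ℂ) • a) (((-(Real.sqrt s)⁻¹ : ℝ) : ℂ) • b)
  have st : ∀ r : ℝ, star (r : ℂ) = r := fun r => Complex.conj_ofReal r
  rw [conjTranspose_smul, conjTranspose_smul, st, st] at h1
  simp only [Matrix.smul_mul, Matrix.mul_smul, smul_smul, ← Complex.ofReal_mul] at h1
  rw [rt_smul, rt_smul, rt_smul, hss, neg_mul_neg, hsi, neg_mul, inv_mul_cancel₀ hs0.ne'] at h1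
  linarith

/-- Scalar optimisation. -/
theorem sq_le_of_forall {F p q : ℝ} (hF : 0 ≤ F) (hp : 0 ≤ p) (hq : 0 ≤ q)
    (h : ∀ s : ℝ, 0 < s → 2 * F ≤ s * p + s⁻¹ * q) : F ^ 2 ≤ p * q := by
  rcases hF.eq_or_lt with h0 | h0
  · rw [← h0]
    have := mul_nonneg hp hq
    simpa using this
  rcases hp.eq_or_lt with h1 | h1
  · exfalso
    have h2 := h ((q + 1) / F) (by positivity)
    rw [← h1, inv_div] at h2
    have h3 : F / (q + 1) * q ≤ F := by
      rw [div_mul_eq_mul_div, div_le_iff₀ (by linarith)]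
      nlinarith
    linarith
  · have h2 := h (F / p) (by positivity)
    rw [inv_div, div_mul_cancel₀ _ h1.ne'] at h2
    have h3 : F ≤ p / F * q := by linarith
    rw [div_mul_eq_mul_div, le_div_iff₀ h0] at h3
    nlinarith

/-- Data of a noise map `T`. -/
structure Noise (T : Matrix I I ℂ →ₗ[ℂ] Matrix I I ℂ) : Prop where
  self : ∀ X Y, (T X * Y).trace = (X * T Y).trace
  star : ∀ Y, T Yᴴ = (T Y)ᴴ
  one : T 1 = 1
  block : ∀ X K Y, (fromBlocks X K Kᴴ Y).PosSemidef →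
    (fromBlocks (T X) (T K) (T K)ᴴ (T Y)).PosSemidef
  flip : ∀ Y, (T (Yᴴ * Y) - T Y * (T Y)ᴴ).PosSemidef

variable {T : Matrix I I ℂ →ₗ[ℂ] Matrix I I ℂ}

theorem Noise.rt_self (h : Noise T) (X Y : Matrix I I ℂ) : rt (T X * Y) = rt (X * T Y) := by
  rw [rt, rt, h.self]

theorem Noise.rt_eq (h : Noise T) (X : Matrix I I ℂ) : rt (T X) = rt X := by
  have := h.rt_self X 1
  rwa [h.one, Matrix.mul_one, Matrix.mul_one] at this

theorem Noise.psd (h : Noise T) {X : Matrix I I ℂ} (hX : X.PosSemidef) : (T X).PosSemidef := by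
  have h1 : (fromBlocks X 0 (0 : Matrix I I ℂ)ᴴ 0).PosSemidef := by
    have h2 := hX.conjTranspose_mul_mul_same (fromCols (1 : Matrix I I ℂ) (0 : Matrix I I ℂ))
    rw [conjTranspose_fromCols_eq_fromRows_conjTranspose, fromRows_mul, fromRows_mul_fromCols]
      at h2
    simpa using h2
  exact (h.block X 0 0 h1).submatrix (Sum.inl : I → I ⊕ I)

/-- Flip and continuity. -/
theorem flip_cs (h : Noise T) {X Y K : Matrix I I ℂ}
    (hK : (fromBlocks X K Kᴴ Y).PosSemidef) (hX : X.PosSemidef) (hY : Y.PosSemidef)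
    (h0 : 0 ≤ rt K) (W : Matrix I I ℂ) :
    rt K ^ 2 ≤ rt (cs (T X) (T Y) W) * (rt X + rt Y) := by
  have hTX := h.psd hX
  have hTY := h.psd hY
  refine sq_le_of_forall h0 (rt_nonneg ((hTX.conjTranspose_mul_mul_same _).add
    (hTY.conjTranspose_mul_mul_same _))) (add_nonneg (rt_nonneg hX) (rt_nonneg hY)) ?_
  intro s hs
  have h1 : 2 * rt (Wᴴ * T K) ≤ s * rt (Wᴴ * T X * W) + s⁻¹ * rt Y := by
    have := block_scale (h.block X K Y hK) W (1 : Matrix I I ℂ) hs
    rwa [Matrix.mul_one, conjTranspose_one, Matrix.one_mul, Matrix.mul_one, h.rt_eq] at this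
  have h2 : 2 * rt ((1 - W)ᴴ * T K) ≤
      s * rt ((1 - W)ᴴ * T Y * (1 - W)) + s⁻¹ * rt X := by
    set Z := 1 - W
    have g1 := block_scale hK (1 : Matrix I I ℂ) (T Z)ᴴ (inv_pos.mpr hs)
    rw [inv_inv, conjTranspose_one, Matrix.one_mul, Matrix.one_mul, Matrix.mul_one,
      conjTranspose_conjTranspose] at g1
    have g2 : rt (K * (T Z)ᴴ) = rt (Zᴴ * T K) := by
      rw [← h.star, ← h.rt_self, rt_mul_comm]
    have g3 : rt (T Z * Y * (T Z)ᴴ) ≤ rt (Zᴴ * T Y * Z) := by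
      have f1 := rt_mul_nonneg (h.flip Zᴴ) hY
      rw [Matrix.sub_mul, rt_sub, h.rt_self, conjTranspose_conjTranspose, h.star,
        conjTranspose_conjTranspose] at f1
      have f2 : rt (Z * Zᴴ * T Y) = rt (Zᴴ * T Y * Z) := by
        rw [Matrix.mul_assoc, rt_mul_comm]
      have f3 : rt ((T Z)ᴴ * T Z * Y) = rt (T Z * Y * (T Z)ᴴ) := by
        rw [Matrix.mul_assoc, rt_mul_comm]
      rw [f2, f3] at f1
      linarith
    rw [g2] at g1
    have := mul_le_mul_of_nonneg_left g3 hs.le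
    linarith
  have h3 : rt K = rt (Wᴴ * T K) + rt ((1 - W)ᴴ * T K) := by
    rw [← rt_add, ← Matrix.add_mul, ← conjTranspose_add, add_sub_cancel, conjTranspose_one,
      Matrix.one_mul, h.rt_eq]
  rw [cs, rt_add, h3]
  linarith

end Vale.Agent.P372.Z
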